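import Crest.Agent.R175.Dir.Bridge

/-!
# Row 175, block Dir: down-closure, allowed moves, `ch`, `dir`, `stabF` (owner helper95)
-/

set_option autoImplicit false

open Finset Crest.GroupTheory

noncomputable section

namespace Crest.Agent.R175.P

open Cox

variable {S : Type} [Fintype S] [DecidableEq S] {M : CoxeterMatrix S} (Q : Mdl M)

namespace Mdl

theorem v_inv_smul {s t : S} (h : t ≠ s) (x : Q.X) (n : ℤ) : Q.v ((σ M s)⁻¹ • x) n t = Q.v x n t := by
  rw [← Q.loc s t h, smul_inv_smul]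

/-- the value at a vertex of type `t ∉ U` does not change under `A_U` -/
theorem v_smul {U : Finset S} {a : ArtinGroup M} (ha : a ∈ AP M U) {t : S} (ht : t ∉ U) (x : Q.X) (n : ℤ) :
    Q.v (a • x) n t = Q.v x n t :=
  AP_induction_left (P := fun a => Q.v (a • x) n t = Q.v x n t) ha (by rw [one_smul])
    (fun s hs q _ ih => by rw [mul_smul, Q.loc s t (fun e => ht (e ▸ hs)), ih])
    fun s hs q _ ih => by rw [mul_smul, Q.v_inv_smul (fun e : t = s => ht (e ▸ hs)), ih]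

variable {Q}

theorem Le.mono {U U' : Finset S} {m m' : ℤ} {x : Q.X} (h : Q.Le U m x) (hU : U' ⊆ U) (hm : m ≤ m') :
    Q.Le U' m' x := fun n hn u hu => h n (hm.trans_lt hn) u (hU hu)

theorem Le.out {U : Finset S} {m : ℤ} {x : Q.X} (h : Q.Le U m x) : Q.Out U m x :=
  fun n hn u hu => ⟨(h n hn u hu).1, fun t _ => (h n hn u hu).2.2 t⟩

theorem Out.smul {U : Finset S} {m : ℤ} {x : Q.X} (h : Q.Out U m x) {a : ArtinGroup M} (ha : a ∈ AP M U) :
    Q.Out U m (a • x) := fun n hn u hu =>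
  ⟨by rw [Q.fr_smul]; exact (h n hn u hu).1, fun t ht h' => by rw [Q.v_smul ha ht]; exact (h n hn u hu).2 t ht h'⟩

theorem Out.mono {U : Finset S} {m m' : ℤ} {x : Q.X} (h : Q.Out U m x) (hm : m ≤ m') : Q.Out U m' x :=
  fun n hn => h n (hm.trans_lt hn)

theorem le_of_out {U : Finset S} {m : ℤ} {x : Q.X} (h : Q.Out U m x) (h' : ∀ n, m < n → ∀ u ∈ U, Q.v x n u = 0) :
    Q.Le U m x := fun n hn u hu => ⟨(h n hn u hu).1, h' n hn u hu, fun t ht => by
  by_cases hU : t ∈ U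
  · exact h' n hn t hU
  · exact (h n hn u hu).2 t hU ht⟩

variable (Q) in
theorem b_smul {U : Finset S} {a : ArtinGroup M} (ha : a ∈ AP M U) (x : Q.X) (m : ℤ) :
    Q.b U (a • x) m = Q.b U x m := by
  funext u
  rw [b, b, Q.fr_smul, sum_congr rfl fun t ht => by rw [Q.v_smul ha (mem_compl.1 ht)]]

theorem Adm.smul {U : Finset S} {m : ℤ} {x : Q.X} {c : S → ℝ} (h : Q.Adm U x m c) {a : ArtinGroup M}
    (ha : a ∈ AP M U) : Q.Adm U (a • x) m c := by
  rwa [Adm, Q.b_smul ha]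

variable (Q) in
theorem exists_le (U : Finset S) (x : Q.X) : ∃ m, Q.Le U m x := by
  obtain ⟨m, h⟩ := Q.bdd x
  exact ⟨m, fun n hn u _ => ⟨(h n hn u).2, (h n hn u).1, fun t _ => (h n hn t).1⟩⟩

theorem Le.down1 {U : Finset S} {m : ℤ} {x : Q.X} (h : Q.Le U m x) {s : S} (hs : s ∈ U) :
    Q.Le U m ((σ M s)⁻¹ • x) := by
  refine le_of_out (h.out.smul (inv_mem (σ_mem_AP hs))) fun n hn u hu => ?_
  by_cases e : u = s
  · exact e ▸ (Q.down s m x (h.mono (singleton_subset_iff.2 hs) le_rfl)).1 n hn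
  · rw [Q.v_inv_smul e]; exact (h n hn u hu).2.1

end Mdl

open Mdl

/-- `D^{≤ m}` is closed under down-moves -/
theorem le_down {U : Finset S} {m : ℤ} {x : Q.X} {q : ArtinGroup M} (hq : q ∈ Pos M U) (h : Q.Le U m x) :
    Q.Le U m (q⁻¹ • x) :=
  pos_induction_right (P := fun q => Q.Le U m (q⁻¹ • x)) hq (by simpa using h) fun q _ s hs ih => by
    rw [mul_inv_rev, mul_smul]; exact ih.down1 hs

theorem le_of_smul {U : Finset S} {m : ℤ} {x : Q.X} {q : ArtinGroup M} (hq : q ∈ Pos M U) (h : Q.Le U m (q • x)) :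
    Q.Le U m x := by simpa using le_down Q hq h

/-- ALW: all reduced words in a set of allowed moves are allowed -/
theorem alw {U L : Finset S} (hL : FinT M L) (hLU : L ⊆ U) {m : ℤ} {x : Q.X} (hx : Q.Le U m x)
    (ha : ∀ s ∈ L, Q.Le U m (σ M s • x)) {w : M.Group} (hw : w ∈ par (cx M) (L : Set S)) :
    Q.Le U m (lf M w • x) := by
  induction hn : (cx M).length w using Nat.strong_induction_on generalizing w with
  | _ n ih =>
    subst hn
    by_cases h1 : w = 1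
    · rw [h1, lf, lft_one _ (braid_gen M), one_smul]; exact hx
    obtain ⟨s, hs⟩ := (cx M).exists_leftDescent_of_ne_one h1
    have hsL : s ∈ L := mem_of_downl _ hw hs
    have hw' := mul_mem (simple_mem_par (cx M) (U := (L : Set S)) hsL) hw
    by_cases h2 : (cx M).simple s * w = 1
    · rw [← (cx M).inv_simple, inv_mul_eq_one] at h2
      rw [← h2, lf, lft_simple _ (braid_gen M)]; exact ha s hsL
    obtain ⟨t, ht⟩ := (cx M).exists_leftDescent_of_ne_one h2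
    have htL : t ∈ L := mem_of_downl _ hw' ht
    unfold CoxeterSystem.IsLeftDescent at hs ht
    have hst : s ≠ t := by
      rintro rfl
      rw [CoxeterSystem.simple_mul_simple_cancel_left] at ht; omega
    obtain ⟨v, y, hy, hv, e, hl⟩ := exists_minl (cx M) {s, t} w
    have hsub : ({s, t} : Set S) ⊆ L := by rintro z (rfl | rfl) <;> assumption
    have hyL : y ∈ par (cx M) (L : Set S) := (Subgroup.mul_mem_cancel_left _ (par_mono _ hsub hv)).1 (e ▸ hw)
    have h3 := length_mul_of_minl (cx M) hy (mul_mem (simple_mem_par _ (show t ∈ ({s, t} : Set S) by simp))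
      (mul_mem (simple_mem_par _ (show s ∈ ({s, t} : Set S) by simp)) hv))
    rw [mul_assoc, mul_assoc, ← e] at h3
    have h4 : ∀ z ∈ ({s, t} : Set S), Q.Le U m (σ M z • lf M y • x) := fun z hz => by
      rw [← mul_smul, ← lft_simple_mul _ (braid_gen M) (hy z hz)]
      exact ih _ (by rw [upl_succ _ (hy z hz)]; omega) (mul_mem (simple_mem_par _ (hsub hz)) hyL) rfl
    have h5 := ih _ (by omega) hyL rfl
    have h0 := hL.label hsL htL
    obtain ⟨h6, h7⟩ := lf_pair hst h0 hv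
    rw [e, lf, lft_mul _ (braid_gen M) (e ▸ hl), mul_smul]
    rcases h7 with h7 | h7
    · rw [lf] at h7; rw [h7]
      exact Q.alw2 U s (hLU hsL) t (hLU htL) hst h0 m _ h5 (h4 s (by simp)) (h4 t (by simp)) _ h6
    · rw [lf] at h7; rw [h7]
      exact Q.alw2 U t (hLU htL) s (hLU hsL) hst.symm (M.symmetric s t ▸ h0) m _ h5 (h4 t (by simp))
        (h4 s (by simp)) _ (M.symmetric s t ▸ h6)

theorem alw_Δ {U L : Finset S} (hL : FinT M L) (hLU : L ⊆ U) {m : ℤ} {x : Q.X} (hx : Q.Le U m x)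
    (ha : ∀ s ∈ L, Q.Le U m (σ M s • x)) : Q.Le U m (Δ M L • x) := alw Q hL hLU hx ha (w0_mem _)

theorem exists_ch {U : Finset S} (hU : FinT M U) {m : ℤ} {x : Q.X} (h : Q.Out U m x) :
    ∃ k : ℕ, Q.Le U m ((Δ M U ^ k)⁻¹ • x) := by
  have key : ∀ k : ℕ, ∀ x, Q.Out U m x → Q.Le U (m + k) x → Q.Le U m ((Δ M U ^ k)⁻¹ • x) := by
    intro k
    induction k with
    | zero => intro x _ h; simpa using h
    | succ k ih =>
      intro x ho h
      have ho' := ho.smul (inv_mem (pos_mem_AP (Δ_mem_pos (M := M) U)))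
      rw [pow_succ', mul_inv_rev, mul_smul]
      refine ih _ ho' (le_of_out (ho'.mono (by omega)) fun n hn u hu => ?_)
      rcases (show m + (k + 1 : ℕ) < n ∨ n = m + (k + 1 : ℕ) by push_cast; omega) with h1 | rfl
      · exact (le_down Q (Δ_mem_pos U) h n h1 u hu).2.1
      · exact Q.kill U _ hU.isGar _ x h (ho _ (by push_cast; omega)) u hu
  obtain ⟨n, hn⟩ := Q.exists_le U x
  exact ⟨(n - m).toNat, key _ x h (hn.mono Subset.rfl (by omega))⟩

theorem ch {U : Finset S} (hU : FinT M U) : S_CH Q U := by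
  have key : ∀ U : Finset S, FinT M U → ∀ m x, Q.Out U m x → ∃ a ∈ AP M U, Q.Le U m (a • x) := fun U hU m x h => by
    obtain ⟨k, hk⟩ := exists_ch Q hU h
    exact ⟨_, inv_mem (pow_mem (pos_mem_AP (Δ_mem_pos U)) k), hk⟩
  refine fun x m h => ⟨key U hU m x h, fun p hp => ?_⟩
  obtain ⟨h1, h2, h3⟩ := hp
  have ho := h.smul h2
  obtain ⟨a, ha, hl⟩ := key _ (hU.mono (erase_subset p.1 U)) m (p.2 • x) fun n hn u hu =>
    ⟨(ho n hn u (mem_of_mem_erase hu)).1, fun t ht h' => by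
      by_cases e : t = p.1
      · exact e ▸ h3 n hn
      · exact (ho n hn u (mem_of_mem_erase hu)).2 t (fun h => ht (mem_erase.2 ⟨e, h⟩)) h'⟩
  refine ⟨a * p.2, by simpa using ha, ?_⟩
  rw [mul_smul]
  refine le_of_out (ho.smul (AP_mono (erase_subset _ _) ha)) fun n hn u hu => ?_
  by_cases e : u = p.1
  · rw [e, Q.v_smul ha (notMem_erase _ _)]; exact h3 n hn
  · exact (hl n hn u (mem_erase.2 ⟨e, hu⟩)).2.1

/-- the neutral moves -/
def Neu (U : Finset S) (x : Q.X) : Finset S := by classical exact U.filter fun s => σ M s • x = x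

/-- the allowed moves -/
def Alw (U : Finset S) (m : ℤ) (x : Q.X) : Finset S := by classical exact U.filter fun s => Q.Le U m (σ M s • x)

theorem mem_neu {U : Finset S} {x : Q.X} {s : S} : s ∈ Neu Q U x ↔ s ∈ U ∧ σ M s • x = x := by simp [Neu]

theorem mem_alw {U : Finset S} {m : ℤ} {x : Q.X} {s : S} : s ∈ Alw Q U m x ↔ s ∈ U ∧ Q.Le U m (σ M s • x) := by
  simp [Alw]

theorem neu_subset (U : Finset S) (x : Q.X) : Neu Q U x ⊆ U := fun _ h => ((mem_neu Q).1 h).1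

theorem alw_subset (U : Finset S) (m : ℤ) (x : Q.X) : Alw Q U m x ⊆ U := fun _ h => ((mem_alw Q).1 h).1

theorem neu_subset_alw {U : Finset S} {m : ℤ} {x : Q.X} (hx : Q.Le U m x) : Neu Q U x ⊆ Alw Q U m x :=
  fun _ h => (mem_alw Q).2 ⟨((mem_neu Q).1 h).1, by rwa [((mem_neu Q).1 h).2]⟩

theorem smul_of_neu {U : Finset S} {x : Q.X} {a : ArtinGroup M} (ha : a ∈ AP M (Neu Q U x)) : a • x = x :=
  AP_induction_left (P := fun a => a • x = x) ha (one_smul _ _)
    (fun s hs q _ ih => by rw [mul_smul, ih, ((mem_neu Q).1 hs).2])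
    fun s hs q _ ih => by rw [mul_smul, ih, inv_smul_eq_iff, ((mem_neu Q).1 hs).2]

/-- an allowed path is neutral or contains a first non-neutral move -/
theorem path_cases {U : Finset S} {m : ℤ} {x : Q.X} {p : ArtinGroup M} (hp : p ∈ Pos M U) (h : Q.Le U m (p • x)) :
    p ∈ Pos M (Neu Q U x) ∨ ∃ p' ∈ Pos M U, ∃ t ∈ Alw Q U m x, ∃ n ∈ Pos M (Neu Q U x),
      σ M t • x ≠ x ∧ p = p' * σ M t * n := by
  have : p ∈ Pos M (Neu Q U x) ∨ ∃ p' ∈ Pos M U, ∃ t ∈ U, ∃ n ∈ Pos M (Neu Q U x),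
      σ M t • x ≠ x ∧ p = p' * σ M t * n := by
    refine pos_induction_left (P := fun p => p ∈ Pos M (Neu Q U x) ∨ ∃ p' ∈ Pos M U, ∃ t ∈ U,
      ∃ n ∈ Pos M (Neu Q U x), σ M t • x ≠ x ∧ p = p' * σ M t * n) hp (Or.inl (one_mem _)) fun s hs q _ ih => ?_
    rcases ih with ih | ⟨p', h1, t, h2, n, h3, h4, rfl⟩
    · by_cases e : σ M s • x = x
      · exact Or.inl (mul_mem (σ_mem_pos ((mem_neu Q).2 ⟨hs, e⟩)) ih)
      · exact Or.inr ⟨1, one_mem _, s, hs, q, ih, e, by rw [one_mul]⟩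
    · exact Or.inr ⟨σ M s * p', mul_mem (σ_mem_pos hs) h1, t, h2, n, h3, h4, by simp only [mul_assoc]⟩
  refine this.imp_right ?_
  rintro ⟨p', h1, t, h2, n, h3, h4, rfl⟩
  refine ⟨p', h1, t, (mem_alw Q).2 ⟨h2, le_of_smul Q h1 ?_⟩, n, h3, h4, rfl⟩
  rwa [mul_smul, mul_smul, smul_of_neu Q (pos_mem_AP h3)] at h

/-- induction along non-neutral allowed up-moves -/
theorem term_induction {U : Finset S} (hU : FinT M U) {m : ℤ} {P : Q.X → Prop}
    (step : ∀ x, Q.Le U m x → (∀ t ∈ Alw Q U m x, σ M t • x ≠ x → P (σ M t • x)) → P x) {x : Q.X}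
    (hx : Q.Le U m x) : P x := by
  induction x using (Q.term U hU.gars m).induction with
  | _ x ih =>
    exact step x hx fun t ht hne => ih _ ⟨hx, ((mem_alw Q).1 ht).2, hne, t, ((mem_alw Q).1 ht).1, rfl⟩
      ((mem_alw Q).1 ht).2

theorem dir_pos {U : Finset S} (hU : FinT M U) {m : ℤ} {y : Q.X} (hy : Q.Le U m y) :
    ∀ p ∈ Pos M U, ∀ q ∈ Pos M U, Q.Le U m (p • y) → Q.Le U m (q • y) →
      ∃ r, r * p⁻¹ ∈ Pos M U ∧ r * q⁻¹ ∈ Pos M U ∧ Q.Le U m (r • y) := by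
  refine term_induction Q hU (P := fun y => ∀ p ∈ Pos M U, ∀ q ∈ Pos M U, Q.Le U m (p • y) → Q.Le U m (q • y) →
      ∃ r, r * p⁻¹ ∈ Pos M U ∧ r * q⁻¹ ∈ Pos M U ∧ Q.Le U m (r • y)) (fun y hy ih => ?_) hy
  set N := Neu Q U y with hN
  set L := Alw Q U m y with hL
  have hNL : N ⊆ L := neu_subset_alw Q hy
  have hLU : L ⊆ U := alw_subset Q U m y
  have fL := hU.mono hLU
  have fN := fL.mono hNL
  have hE : ∀ k : ℕ, Q.Le U m ((Δ M L * Δ M N ^ k) • y) := fun k => by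
    rw [mul_smul, smul_of_neu Q (pow_mem (pos_mem_AP (Δ_mem_pos _)) k)]
    exact alw_Δ Q fL hLU hy fun s hs => ((mem_alw Q).1 hs).2
  have above : ∀ ν ∈ Pos M N, ∀ t ∈ L, Δ M L * ν * (σ M t)⁻¹ ∈ Pos M U := fun ν hν t ht => by
    convert pos_mono hLU (mul_mem (fL.conj_pos (pos_mono hNL hν)).1 (fL.Δ_mul_inv ht)) using 1; group
  have one : ∀ p ∈ Pos M U, Q.Le U m (p • y) → ∃ k₀ : ℕ, ∀ k, k₀ ≤ k →
      (p ∈ Pos M N → Δ M L * Δ M N ^ k * p⁻¹ ∈ Pos M U) ∧
      ∃ r, r * p⁻¹ ∈ Pos M U ∧ r * (Δ M L * Δ M N ^ k)⁻¹ ∈ Pos M U ∧ Q.Le U m (r • y) := by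
    intro p hp h
    by_cases h1 : p ∈ Pos M N
    · obtain ⟨k₀, hk⟩ := fN.exists_pow (inv_mem (pos_mem_AP h1))
      refine ⟨k₀, fun k hk' => ?_⟩
      have : Δ M L * Δ M N ^ k * p⁻¹ ∈ Pos M U := by
        rw [mul_assoc]; exact pos_mono hLU (mul_mem (Δ_mem_pos _) (pos_mono hNL (hk k hk').2))
      exact ⟨fun _ => this, _, this, by simp [one_mem], hE k⟩
    obtain ⟨p', h2, t, ht, n, hn, hne, rfl⟩ := (path_cases Q hp h).resolve_left h1
    obtain ⟨k₀, hk⟩ := fN.exists_pow (inv_mem (pos_mem_AP hn))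
    refine ⟨k₀, fun k hk' => ⟨fun h => absurd h h1, ?_⟩⟩
    have hny : n • y = y := smul_of_neu Q (pos_mem_AP hn)
    obtain ⟨r, a1, a2, a3⟩ := ih t ht hne p' h2 _ (above _ (hk k hk').2 t ht)
      (by rwa [mul_smul, mul_smul, hny] at h)
      (by
        have := hE k
        rw [← hny, ← mul_smul, ← mul_smul]
        convert this using 2; group)
    refine ⟨r * σ M t * n, ?_, ?_, by rwa [mul_smul, mul_smul, hny]⟩
    · convert a1 using 1; group
    · convert a2 using 1; group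
  intro p hp q hq h1 h2
  obtain ⟨k₁, a1⟩ := one p hp h1
  obtain ⟨k₂, a2⟩ := one q hq h2
  obtain ⟨b1, r₁, c1, d1, e1⟩ := a1 _ (le_max_left k₁ k₂)
  obtain ⟨b2, r₂, c2, d2, e2⟩ := a2 _ (le_max_right k₁ k₂)
  by_cases hex : ∃ t ∈ L, σ M t • y ≠ y
  · obtain ⟨t, ht, hne⟩ := hex
    have h3 := above _ (pow_mem (Δ_mem_pos N) (max k₁ k₂)) t ht
    obtain ⟨r, f1, f2, f3⟩ := ih t ht hne (r₁ * (σ M t)⁻¹) (by convert mul_mem d1 h3 using 1; group)
      (r₂ * (σ M t)⁻¹) (by convert mul_mem d2 h3 using 1; group) (by rwa [mul_smul, inv_smul_smul])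
      (by rwa [mul_smul, inv_smul_smul])
    refine ⟨r * σ M t, ?_, ?_, by rwa [mul_smul]⟩
    · convert mul_mem f1 c1 using 1; group
    · convert mul_mem f2 c2 using 1; group
  · exact ⟨_, b1 ((path_cases Q hp h1).resolve_right fun ⟨_, _, t, ht, _, _, hne, _⟩ => hex ⟨t, ht, hne⟩),
      b2 ((path_cases Q hq h2).resolve_right fun ⟨_, _, t, ht, _, _, hne, _⟩ => hex ⟨t, ht, hne⟩), hE _⟩

theorem dir {U : Finset S} (hU : FinT M U) : S_DIR Q U := by
  intro x m a ha a' ha' h h'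
  obtain ⟨k₁, h1⟩ := hU.exists_pow ha
  obtain ⟨k₂, h2⟩ := hU.exists_pow ha'
  have a1 := (h1 _ (le_max_left k₁ k₂)).1
  have a2 := (h2 _ (le_max_right k₁ k₂)).1
  set D := Δ M U ^ max k₁ k₂
  have e : ∀ a : ArtinGroup M, (a * D) • D⁻¹ • x = a • x := fun a => by rw [mul_smul, smul_inv_smul]
  obtain ⟨r, b1, b2, b3⟩ := dir_pos Q hU (y := D⁻¹ • x) (le_of_smul Q a1 (by rwa [e])) _ a1 _ a2 (by rwa [e])
    (by rwa [e])
  refine ⟨r * D⁻¹, ?_, ?_, by rwa [mul_smul]⟩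
  · convert b1 using 1; group
  · convert b2 using 1; group

/-- above every chamber in `D^{≤ m}` there is a terminal one -/
theorem exists_terminal {U : Finset S} (hU : FinT M U) {m : ℤ} {x : Q.X} (hx : Q.Le U m x) :
    ∃ d ∈ Pos M U, Q.Le U m (d • x) ∧ ∀ t ∈ Alw Q U m (d • x), σ M t • d • x = d • x := by
  refine term_induction Q hU (P := fun x => ∃ d ∈ Pos M U, Q.Le U m (d • x) ∧
    ∀ t ∈ Alw Q U m (d • x), σ M t • d • x = d • x) (fun x hx ih => ?_) hx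
  by_cases h : ∃ t ∈ Alw Q U m x, σ M t • x ≠ x
  · obtain ⟨t, ht, hne⟩ := h
    obtain ⟨d, h1, h2⟩ := ih t ht hne
    exact ⟨d * σ M t, mul_mem h1 (σ_mem_pos (alw_subset Q U m x ht)), by rwa [mul_smul]⟩
  · push Not at h
    exact ⟨1, one_mem _, by rwa [one_smul], by rwa [one_smul]⟩

/-- from a terminal chamber every allowed path is neutral -/
theorem neu_of_terminal {U : Finset S} {m : ℤ} {y : Q.X} (hy : ∀ t ∈ Alw Q U m y, σ M t • y = y)
    {p : ArtinGroup M} (hp : p ∈ Pos M U) (h : Q.Le U m (p • y)) : p ∈ Pos M (Neu Q U y) :=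
  (path_cases Q hp h).resolve_right fun ⟨_, _, t, ht, _, _, hne, _⟩ => hne (hy t ht)

theorem stabF {U : Finset S} (hU : FinT M U) : S_F Q U := by
  intro x
  obtain ⟨m, hx⟩ := Q.exists_le U x
  obtain ⟨d, hd, h1, h2⟩ := exists_terminal Q hU hx
  have hd' := pos_mem_AP hd
  refine ⟨d, hd', Neu Q U (d • x), neu_subset Q U _, fun h hh => ⟨fun e => ?_, fun e => ?_⟩⟩
  · have e' : (d * h * d⁻¹) • d • x = d • x := by rw [mul_smul, inv_smul_smul, mul_smul, e]
    obtain ⟨r, a1, a2, a3⟩ := dir Q hU (d • x) m 1 (one_mem _) _ (mul_mem (mul_mem hd' hh) (inv_mem hd'))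
      (by rwa [one_smul]) (by rwa [e'])
    rw [inv_one, mul_one] at a1
    have b1 := neu_of_terminal Q h2 a1 a3
    have b2 := neu_of_terminal Q h2 a2 (by rwa [mul_smul, inv_smul_eq_iff.2 e'.symm])
    convert mul_mem (inv_mem (pos_mem_AP b2)) (pos_mem_AP b1) using 1; group
  · have := smul_of_neu Q e
    rwa [mul_smul, inv_smul_smul, mul_smul, smul_left_cancel_iff] at this

end Crest.Agent.R175.P
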