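import Crest.Agent.R175.P.Defs
import Crest.Agent.R175.Cox.Mats
import Crest.Agent.R175.Cox.Fin

/-!
# Row 175, block Dir: bridge between `P/Defs` and the Coxeter toolkit; Garside elements (owner helper95)
-/

set_option autoImplicit false

open Finset Crest.GroupTheory

noncomputable section

namespace Crest.Agent.R175.P

open Cox

variable {S : Type} [Fintype S] [DecidableEq S] (M : CoxeterMatrix S)

/-- the Coxeter system of `M` -/
abbrev cx : CoxeterSystem M M.Group := M.toCoxeterSystem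

/-- the canonical lift `W → A` -/
abbrev lf (w : M.Group) : ArtinGroup M := lft (cx M) (artinGen M) w

/-- the Garside element `Δ_U` -/
abbrev Δ (U : Finset S) : ArtinGroup M := Dl (cx M) (artinGen M) (U : Set S)

omit [Fintype S] in
theorem adj_self (s : S) : adj M s s = 0 := by simp [adj]

omit [Fintype S] in
theorem adj_eq {s t : S} (h : s ≠ t) : adj M s t = - Cm M s t := by simp [adj, h, Cm]

omit [Fintype S] in
theorem Cm_eq_adj (s t : S) : Cm M s t = (if s = t then 2 else 0) - adj M s t := by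
  by_cases h : s = t
  · subst h; simp [adj_self, Cm_self]
  · simp [adj_eq M h, h]

omit [Fintype S] in
theorem adj_symm (s t : S) : adj M s t = adj M t s := by
  by_cases h : s = t
  · rw [h]
  · rw [adj_eq M h, adj_eq M (Ne.symm h), Cm_symm]

omit [Fintype S] in
theorem adj_nonneg (s t : S) : 0 ≤ adj M s t := by
  by_cases h : s = t
  · rw [h, adj_self]
  · rw [adj_eq M h]; linarith [Cm_nonpos M h]

omit [Fintype S] in
theorem adj_eq_zero_iff {s t : S} (h : s ≠ t) : adj M s t = 0 ↔ M.M s t = 2 := by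
  rw [adj_eq M h, neg_eq_zero]
  exact ⟨fun h0 => by_contra fun h2 => by linarith [Cm_le_neg_one M h h2], Cm_of_two M⟩

omit [Fintype S] in
theorem one_le_adj {s t : S} (h : adj M s t ≠ 0) : 1 ≤ adj M s t := by
  have hst : s ≠ t := by rintro rfl; exact h (adj_self M s)
  have := Cm_le_neg_one M hst fun h2 => h ((adj_eq_zero_iff M hst).2 h2)
  rw [adj_eq M hst]; linarith

omit [Fintype S] [DecidableEq S] in
theorem alt_eq (s t : S) (k : ℕ) : alt M s t k = altP (σ M s) (σ M t) k := by
  rw [alt, artinAltWord_eq, map_altP]; rfl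

omit [Fintype S] in
theorem comm_of_adj {s t : S} (h : adj M s t = 0) : σ M s * σ M t = σ M t * σ M s := by
  by_cases hst : s = t
  · rw [hst]
  have := braid_gen M s t
  rw [show M s t = 2 from (adj_eq_zero_iff M hst).1 h] at this
  simpa [altP] using this

/-- `Car` in terms of the Cartan matrix. -/
theorem car_eq {U : Finset S} {x : S → ℝ} (hx : Supp (U : Set S) x) (s : S) :
    Car M U x s = ∑ u, Cm M s u * x u := by
  simp only [Car, Cm_eq_adj, sub_mul, sum_sub_distrib, ite_mul, zero_mul, sum_ite_eq, mem_univ, if_true]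
  rw [sum_subset (subset_univ U) fun u _ hu => by rw [hx u hu, mul_zero]]

omit [Fintype S] in
theorem car_congr {U : Finset S} {x y : S → ℝ} (h : ∀ u ∈ U, x u = y u) {s : S} (hs : s ∈ U) :
    Car M U x s = Car M U y s := by
  rw [Car, Car, h s hs, sum_congr rfl fun u hu => by rw [h u hu]]

theorem finT_iff_pd {U : Finset S} : FinT M U ↔ PD M (U : Set S) := by
  have key : ∀ x : S → ℝ, Supp (U : Set S) x → ∑ s ∈ U, x s * Car M U x s = qf M x := fun x hx => by
    rw [qf, ← sum_subset (subset_univ U) fun u _ hu => by rw [hx u hu, zero_mul]]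
    exact sum_congr rfl fun s _ => by rw [car_eq M hx]
  constructor
  · intro h x hx h0
    rw [← key x hx]
    obtain ⟨u, hu⟩ := Function.ne_iff.1 h0
    exact h x ⟨u, by_contra fun h => hu (hx u h), hu⟩
  · rintro h x ⟨u, hu, h0⟩
    have hs : Supp (U : Set S) fun s => if s ∈ U then x s else 0 := fun s hs => if_neg hs
    have := h _ hs fun e => h0 (by simpa [hu] using congrFun e u)
    rw [← key _ hs] at this
    refine this.trans_eq (sum_congr rfl fun s hs => ?_)
    rw [if_pos hs, car_congr M (y := x) (fun u hu => if_pos hu) hs]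

theorem finT_iff_sph {U : Finset S} : FinT M U ↔ Sph (cx M) (U : Set S) := by
  rw [finT_iff_pd, sph_iff_pd]

variable {M}

theorem FinT.sph {U : Finset S} (h : FinT M U) : Sph (cx M) (U : Set S) := (finT_iff_sph M).1 h

theorem FinT.mono {U U' : Finset S} (h : FinT M U) (hU : U' ⊆ U) : FinT M U' :=
  (finT_iff_sph M).2 (h.sph.mono (coe_subset.2 hU))

theorem FinT.label {U : Finset S} (h : FinT M U) {s t : S} (hs : s ∈ U) (ht : t ∈ U) : M.M s t ≠ 0 := by
  by_cases hst : s = t
  · subst hst; simp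
  · exact (sph_pair_iff (cx M) hst).1 (h.sph.mono (by rintro x (rfl | rfl) <;> assumption))

section
omit [Fintype S] [DecidableEq S]

theorem σ_mem_pos {U : Finset S} {s : S} (h : s ∈ U) : σ M s ∈ Pos M U := Submonoid.subset_closure ⟨s, h, rfl⟩

theorem σ_mem_AP {U : Finset S} {s : S} (h : s ∈ U) : σ M s ∈ AP M U := Subgroup.subset_closure ⟨s, h, rfl⟩

theorem pos_mem_AP {U : Finset S} {p : ArtinGroup M} (h : p ∈ Pos M U) : p ∈ AP M U :=
  Subgroup.le_closure_toSubmonoid _ h

theorem pos_mono {U U' : Finset S} (h : U ⊆ U') : Pos M U ≤ Pos M U' :=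
  Submonoid.closure_mono (Set.image_mono (coe_subset.2 h))

theorem AP_mono {U U' : Finset S} (h : U ⊆ U') : AP M U ≤ AP M U' :=
  Subgroup.closure_mono (Set.image_mono (coe_subset.2 h))

theorem lf_mem_pos {U : Finset S} {w : M.Group} (hw : w ∈ par (cx M) (U : Set S)) : lf M w ∈ Pos M U :=
  lft_mem _ hw

theorem Δ_mem_pos (U : Finset S) : Δ M U ∈ Pos M U := lf_mem_pos (w0_mem _)

/-- induction on positive words, adding letters on the left -/
theorem pos_induction_left {U : Finset S} {P : ArtinGroup M → Prop} {p : ArtinGroup M} (hp : p ∈ Pos M U)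
    (one : P 1) (step : ∀ s ∈ U, ∀ q ∈ Pos M U, P q → P (σ M s * q)) : P p := by
  induction hp using Submonoid.closure_induction_left with
  | one => exact one
  | mul_left x hx y hy ih => obtain ⟨s, hs, rfl⟩ := hx; exact step s hs y hy ih

/-- induction on positive words, adding letters on the right -/
theorem pos_induction_right {U : Finset S} {P : ArtinGroup M → Prop} {p : ArtinGroup M} (hp : p ∈ Pos M U)
    (one : P 1) (step : ∀ q ∈ Pos M U, ∀ s ∈ U, P q → P (q * σ M s)) : P p := by
  induction hp using Submonoid.closure_induction_right with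
  | one => exact one
  | mul_right x hx y hy ih => obtain ⟨s, hs, rfl⟩ := hy; exact step x hx s hs ih

/-- induction in a standard parabolic subgroup, adding letters on the left -/
theorem AP_induction_left {U : Finset S} {P : ArtinGroup M → Prop} {a : ArtinGroup M} (ha : a ∈ AP M U)
    (one : P 1) (step : ∀ s ∈ U, ∀ q ∈ AP M U, P q → P (σ M s * q))
    (step' : ∀ s ∈ U, ∀ q ∈ AP M U, P q → P ((σ M s)⁻¹ * q)) : P a := by
  induction ha using Subgroup.closure_induction_left with
  | one => exact one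
  | mul_left x hx y hy ih => obtain ⟨s, hs, rfl⟩ := hx; exact step s hs y hy ih
  | inv_mul_cancel x hx y hy ih => obtain ⟨s, hs, rfl⟩ := hx; exact step' s hs y hy ih

end

theorem FinT.inv_mul_Δ {U : Finset S} (h : FinT M U) {s : S} (hs : s ∈ U) : (σ M s)⁻¹ * Δ M U ∈ Pos M U := by
  have h1 := simple_mem_par (cx M) (U := (U : Set S)) hs
  rw [Δ, h.sph.dl_left (braid_gen M) h1, lft_simple _ (braid_gen M), inv_mul_cancel_left]
  exact lf_mem_pos (mul_mem (inv_mem h1) (w0_mem _))

theorem FinT.Δ_mul_inv {U : Finset S} (h : FinT M U) {s : S} (hs : s ∈ U) : Δ M U * (σ M s)⁻¹ ∈ Pos M U := by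
  have h1 := simple_mem_par (cx M) (U := (U : Set S)) hs
  rw [Δ, h.sph.dl_right (braid_gen M) h1, lft_simple _ (braid_gen M), mul_inv_cancel_right]
  exact lf_mem_pos (mul_mem (w0_mem _) (inv_mem h1))

theorem FinT.isGar {U : Finset S} (h : FinT M U) : IsGar M U (Δ M U) := fun _ hu => by
  first
  | exact ⟨_, h.inv_mul_Δ hu, (mul_inv_cancel_left _ _).symm⟩
  | exact ⟨_, h.Δ_mul_inv hu, (inv_mul_cancel_right _ _).symm⟩

theorem gar {U : Finset S} (h : FinT M U) : ∃ D, IsGar M U D := ⟨_, h.isGar⟩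

theorem FinT.gars {U : Finset S} (h : FinT M U) : ∀ U' ⊆ U, ∃ D, IsGar M U' D := fun _ hU => gar (h.mono hU)

/-- `Δ_U` permutes the generators. -/
theorem FinT.Δ_conj {U : Finset S} (h : FinT M U) {s : S} (hs : s ∈ U) :
    ∃ t ∈ U, Δ M U * σ M s = σ M t * Δ M U ∧ Δ M U * σ M t = σ M s * Δ M U := by
  obtain ⟨t, ht, e⟩ := h.sph.long.conj (i := s) hs
  refine ⟨t, ht, h.sph.dl_conj (braid_gen M) hs e, h.sph.dl_conj (braid_gen M) ht ?_⟩
  have := congrArg Inv.inv e
  simpa only [mul_inv_rev, CoxeterSystem.inv_simple, h.sph.long.inv, eq_comm] using this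

theorem FinT.conj_pos {U : Finset S} (h : FinT M U) {p : ArtinGroup M} (hp : p ∈ Pos M U) :
    Δ M U * p * (Δ M U)⁻¹ ∈ Pos M U ∧ (Δ M U)⁻¹ * p * Δ M U ∈ Pos M U := by
  refine pos_induction_left (P := fun p => Δ M U * p * (Δ M U)⁻¹ ∈ Pos M U ∧ (Δ M U)⁻¹ * p * Δ M U ∈ Pos M U) hp
    (by simp [one_mem]) fun s hs q _ ih => ?_
  obtain ⟨t, ht, e1, e2⟩ := h.Δ_conj hs
  constructor
  · rw [← mul_assoc, e1, mul_assoc, mul_assoc, ← mul_assoc (Δ M U)]
    exact mul_mem (σ_mem_pos ht) ih.1
  · have : (Δ M U)⁻¹ * σ M s = σ M t * (Δ M U)⁻¹ := by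
      rw [inv_mul_eq_iff_eq_mul, ← mul_assoc, e2, mul_inv_cancel_right]
    rw [← mul_assoc, this, mul_assoc, mul_assoc, ← mul_assoc (Δ M U)⁻¹]
    exact mul_mem (σ_mem_pos ht) ih.2

theorem FinT.conj_pow_pos {U : Finset S} (h : FinT M U) {p : ArtinGroup M} (hp : p ∈ Pos M U) (k : ℕ) :
    Δ M U ^ k * p * (Δ M U ^ k)⁻¹ ∈ Pos M U ∧ (Δ M U ^ k)⁻¹ * p * Δ M U ^ k ∈ Pos M U := by
  induction k with
  | zero => simpa using hp
  | succ k ih =>
    constructor
    · convert (h.conj_pos ih.1).1 using 1; rw [pow_succ']; group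
    · convert (h.conj_pos ih.2).2 using 1; rw [pow_succ]; group

/-- every element of `A_U` becomes positive after multiplication by a large power of `Δ_U` (on either side). -/
theorem FinT.exists_pow {U : Finset S} (h : FinT M U) {a : ArtinGroup M} (ha : a ∈ AP M U) :
    ∃ k₀ : ℕ, ∀ k, k₀ ≤ k → a * Δ M U ^ k ∈ Pos M U ∧ Δ M U ^ k * a ∈ Pos M U := by
  suffices ∃ k : ℕ, Δ M U ^ k * a ∈ Pos M U by
    obtain ⟨k₀, h0⟩ := this
    refine ⟨k₀, fun k hk => ?_⟩
    obtain ⟨l, rfl⟩ := Nat.exists_eq_add_of_le' hk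
    have h1 : Δ M U ^ (l + k₀) * a ∈ Pos M U := by
      rw [pow_add, mul_assoc]; exact mul_mem (pow_mem (Δ_mem_pos U) _) h0
    refine ⟨?_, h1⟩
    convert (h.conj_pow_pos h1 (l + k₀)).2 using 1; group
  refine AP_induction_left (P := fun a => ∃ k : ℕ, Δ M U ^ k * a ∈ Pos M U) ha ⟨0, by simp [one_mem]⟩
    (fun s hs q _ ⟨k, hk⟩ => ⟨k, ?_⟩) fun s hs q _ ⟨k, hk⟩ => ⟨k + 1, ?_⟩
  · convert mul_mem (h.conj_pow_pos (σ_mem_pos hs) k).1 hk using 1; group
  · convert mul_mem (h.conj_pow_pos (h.Δ_mul_inv hs) k).1 hk using 1; rw [pow_succ]; group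

omit [Fintype S] [DecidableEq S] in
/-- elements of a finite dihedral parabolic subgroup lift to alternating words -/
theorem lf_pair {s t : S} (hst : s ≠ t) (h0 : M.M s t ≠ 0) {v : M.Group} (hv : v ∈ par (cx M) {s, t}) :
    (cx M).length v ≤ M.M s t ∧
      (lf M v = alt M s t ((cx M).length v) ∨ lf M v = alt M t s ((cx M).length v)) := by
  have key : ∀ a b : S, a ≠ b → ({a, b} : Set S) = {s, t} →
      (cx M).length v < (cx M).length ((cx M).simple b * v) → lf M v = alt M a b ((cx M).length v) := by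
    refine par_induction_left (cx M) (p := fun v => ∀ a b : S, a ≠ b → ({a, b} : Set S) = {s, t} →
      (cx M).length v < (cx M).length ((cx M).simple b * v) → lf M v = alt M a b ((cx M).length v)) hv
      (fun a b _ _ _ => by rw [lf, lft_one _ (braid_gen M), alt_eq, CoxeterSystem.length_one, altP_zero])
      fun w _ i hi h ih a b hab e hb => ?_
    rw [← e] at hi
    rcases hi with rfl | rfl
    · rw [lf, lft_simple_mul _ (braid_gen M) (by omega), h, alt_eq, altP_succ, ← alt_eq,
        ← ih b i hab.symm (by rw [Set.pair_comm, e]) (by omega)]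
    · rw [CoxeterSystem.simple_mul_simple_cancel_left] at hb; omega
  have hL := isLong_alt (cx M) hst h0
  refine ⟨by rw [← length_w0_pair (cx M) hst h0, hL.eq_w0]; exact hL.length_le hv, ?_⟩
  rcases upl_or_downl (cx M) v t with h1 | h1
  · exact Or.inl (key s t hst rfl h1)
  rcases upl_or_downl (cx M) v s with h2 | h2
  · exact Or.inr (key t s hst.symm (Set.pair_comm _ _) h2)
  have h3 := length_of_downl (cs := cx M) (U := {s, t}) (w := v) (by rintro x (rfl | rfl) <;> assumption)
  have h4 : v = w0 (cx M) {s, t} := by rw [hL.eq_w0] at h3 ⊢; exact hL.eq_of_le hv (by omega)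
  left
  rw [h4, length_w0_pair _ hst h0, alt_eq]
  exact dl_pair _ (braid_gen M) hst h0

end Crest.Agent.R175.P
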